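import Vale.Agent.Lib.P154.ST.Chart
import Vale.Agent.Lib.P154.ST3.RealEq
import Vale.Agent.Lib.P154.ST3.TopC

/-!
The certified polynomial inequalities of the chain with three children on the charts.
-/

namespace Vale.Agent.Lib.P154

namespace ST3

open ST

/-- The upper bound function used at the top level. -/
noncomputable def rhs3 (a t l X : ℝ) : ℝ :=
  ((((l * l) * (l * l)) * ((rv 281475782017024 * AbF (a - rv 281475312254976) (l * t - rv 281475054305280))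
      + (rv 281475131637648 * (BbF (a - rv 281475312254976) (l * t - rv 281475054305280)
        * BbF (a - rv 281475312254976) (l * t - rv 281475054305280)))))
    - (rv 281474998476000 * ((((l * l) * (l * l)) * (l * l))
      * (X * ((BbF (a - rv 281475312254976) (l * t - rv 281475054305280)
        * BbF (a - rv 281475312254976) (l * t - rv 281475054305280))
        * BbF (a - rv 281475312254976) (l * t - rv 281475054305280))))))
    + rv 281474976727040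

lemma center_vals {r b l u : ℝ} (hr : 0 < r) :
    caa r b l u = (3 * (1 + r * b) ^ 9 - Sy (1 + r * b) (1 + r * (1 - b)) (1 - r))
        / (Sy (1 + r * b) (1 + r * (1 - b)) (1 - r) - 3 * (1 - r) ^ 9) ∧
      ctt r b l u = (Sy (1 + r * b) (1 + r * (1 - b)) (1 - r) - 3 * (1 - r) ^ 9)
        / Sy (1 + r * b) (1 + r * (1 - b)) (1 - r) := by
  constructor
  · rw [← cP0_eq r b l u, ← cPt_eq r b l u, mul_div_mul_left _ _ hr.ne']
    rfl
  · rw [← cPt_eq r b l u, ← cS_eq r b l u]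
    simp only [ctt, ciS, mul_assoc, div_eq_mul_inv]

lemma center_N {r b l u : ℝ} :
    Nxy (1 + r * b) (1 + r * (1 - b)) (1 - r) = r ^ 2 * (256 * cNn r b l u) := by
  have e0 := cP0_eq r b l u
  have e1 := cP1_eq r b l u
  have e2 := cPt_eq r b l u
  rw [cNn_eq]
  unfold Nxy
  have e3 : 3 * (1 - r) ^ 9 - Sy (1 + r * b) (1 + r * (1 - b)) (1 - r) = - (r * cPt r b l u) := by
    rw [e2]; ring
  rw [← e0, ← e1, e3]
  ring

lemma rv_256 : rv 281543696187392 = 256 := by unfold rv zv; norm_num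

lemma center_X {r b l u : ℝ} :
    cXv r b l u = Nxy (1 + r * b) (1 + r * (1 - b)) (1 - r)
      / (Sy (1 + r * b) (1 + r * (1 - b)) (1 - r)) ^ 2 := by
  rw [center_N (r := r) (b := b) (l := l) (u := u), ← cS_eq r b l u]
  simp only [cXv, ciS, rv_256]
  rw [div_eq_mul_inv, pow_two (cS r b l u), mul_inv]
  ring

lemma box_K3c {r b l : ℝ} (h0 : 0 ≤ r) (h1 : r ≤ 1 / 8) (h2 : 1 / 2 ≤ b) (h3 : b ≤ 2)
    (h4 : 1 / 2 ≤ l) (h5 : l ≤ 18919 / 32768) : InBox rootK3c r b l 0 := by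
  unfold rootK3c
  apply inBox_all <;> rw [abs_le] <;> unfold rv zv <;> norm_num <;> constructor <;> linarith

lemma box_K {r b : ℝ} (h0 : 0 ≤ r) (h1 : r ≤ 1 / 8) (h2 : 1 / 2 ≤ b) (h3 : b ≤ 2) :
    InBox rootKAu r b 0 0 ∧ InBox rootKBu r b 0 0 ∧ InBox rootKRl r b 0 0 ∧ InBox rootKRu r b 0 0
      ∧ InBox rootKXm r b 0 0 := by
  refine ⟨?_, ?_, ?_, ?_, ?_⟩
  · unfold rootKAu
    apply inBox_all <;> rw [abs_le] <;> unfold rv zv <;> norm_num <;> constructor <;> linarith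
  · unfold rootKBu
    apply inBox_all <;> rw [abs_le] <;> unfold rv zv <;> norm_num <;> constructor <;> linarith
  · unfold rootKRl
    apply inBox_all <;> rw [abs_le] <;> unfold rv zv <;> norm_num <;> constructor <;> linarith
  · unfold rootKRu
    apply inBox_all <;> rw [abs_le] <;> unfold rv zv <;> norm_num <;> constructor <;> linarith
  · unfold rootKXm
    apply inBox_all <;> rw [abs_le] <;> unfold rv zv <;> norm_num <;> constructor <;> linarith

lemma box_K3f {r b l : ℝ} (h0 : 0 ≤ r) (h1 : r ≤ 1) (h2 : 0 ≤ b) (h3 : b ≤ 1)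
    (h4 : 1 / 2 ≤ l) (h5 : l ≤ 18919 / 32768) : InBox rootK3f r b l 0 := by
  unfold rootK3f
  apply inBox_all <;> rw [abs_le] <;> unfold rv zv <;> norm_num <;> constructor <;> linarith

lemma box_KBB {r b : ℝ} (h0 : -(3 / 4) ≤ r) (h1 : r ≤ 3 / 4) (h2 : -(37 / 128) ≤ b) (h3 : b ≤ 37 / 128) :
    InBox rootKBB r b 0 0 := by
  unfold rootKBB
  apply inBox_all <;> rw [abs_le] <;> unfold rv zv <;> norm_num <;> constructor <;> linarith

lemma box_KCn {r b : ℝ} (h0 : 0 ≤ r) (h1 : r ≤ 9 / 32) (h2 : 855 / 1024 ≤ b) (h3 : b ≤ 113 / 128) :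
    InBox rootKCn r b 0 0 := by
  unfold rootKCn
  apply inBox_all <;> rw [abs_le] <;> unfold rv zv <;> norm_num <;> constructor <;> linarith

/-- The top level inequality on the center chart. -/
theorem top_center {r b l : ℝ} (h0 : 0 < r) (h1 : r ≤ 1 / 8) (h2 : 1 / 2 ≤ b) (h3 : b ≤ 2)
    (h4 : 1 / 2 ≤ l) (h5 : l ≤ 18919 / 32768) :
    (Nxy (1 + r * b) (1 + r * (1 - b)) (1 - r)) ^ 2
        * rhs3 ((3 * (1 + r * b) ^ 9 - Sy (1 + r * b) (1 + r * (1 - b)) (1 - r))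
            / (Sy (1 + r * b) (1 + r * (1 - b)) (1 - r) - 3 * (1 - r) ^ 9))
          ((Sy (1 + r * b) (1 + r * (1 - b)) (1 - r) - 3 * (1 - r) ^ 9)
            / Sy (1 + r * b) (1 + r * (1 - b)) (1 - r)) l
          (Nxy (1 + r * b) (1 + r * (1 - b)) (1 - r) / (Sy (1 + r * b) (1 + r * (1 - b)) (1 - r)) ^ 2)
      ≤ (Sy (1 + r * b) (1 + r * (1 - b)) (1 - r) * Lpy (1 + r * b) (1 + r * (1 - b)) (1 - r)
          - Nxy (1 + r * b) (1 + r * (1 - b)) (1 - r))
        * (Sy (1 + r * b) (1 + r * (1 - b)) (1 - r)) ^ 2 := by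
  have g := goodK3c r b l 0 (box_K3c h0.le h1 h2 h3 h4 h5) (by
    intro j
    rw [nthEx_nil]
    unfold Ex.evR rv zv
    norm_num)
  rw [evR_K3c] at g
  obtain ⟨ea, et⟩ := center_vals (r := r) (b := b) (l := l) (u := 0) h0
  have eR : crhs3 r b l 0 = rhs3 (caa r b l 0) (ctt r b l 0) l (cXv r b l 0) := rfl
  have eM := cMt_eq r b l 0
  have eS := cS_eq r b l 0
  have eN := center_N (r := r) (b := b) (l := l) (u := 0)
  have eX := center_X (r := r) (b := b) (l := l) (u := 0)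
  rw [← eX, ← ea, ← et, ← eR, ← eM, eN, ← eS]
  unfold RK3c at g
  have hr4 : 0 ≤ r ^ 4 * 65536 := by positivity
  have h6 := mul_nonneg hr4 g
  have e : r ^ 4 * (65536 * cMt r b l 0) * cS r b l 0 ^ 2 - (r ^ 2 * (256 * cNn r b l 0)) ^ 2 * crhs3 r b l 0
      = r ^ 4 * 65536 * (cMt r b l 0 * (cS r b l 0 * cS r b l 0) - cNn r b l 0 * cNn r b l 0 * crhs3 r b l 0) := by
    ring
  linarith

/-- The upper bounds on the center chart. -/
theorem up_center {r b : ℝ} (h0 : 0 < r) (h1 : r ≤ 1 / 8) (h2 : 1 / 2 ≤ b) (h3 : b ≤ 2)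
    (hs : (Sy (1 + r * b) (1 + r * (1 - b)) (1 - r) - 3 * (1 - r) ^ 9)
      / Sy (1 + r * b) (1 + r * (1 - b)) (1 - r) ≤ 37 / 64)
    (hS : 0 < Sy (1 + r * b) (1 + r * (1 - b)) (1 - r)) :
    ((Sy (1 + r * b) (1 + r * (1 - b)) (1 - r) * Lpy (1 + r * b) (1 + r * (1 - b)) (1 - r)
          - Nxy (1 + r * b) (1 + r * (1 - b)) (1 - r))
        * (Sy (1 + r * b) (1 + r * (1 - b)) (1 - r)) ^ 2
      ≤ (Nxy (1 + r * b) (1 + r * (1 - b)) (1 - r)) ^ 2
        * AbF ((3 * (1 + r * b) ^ 9 - Sy (1 + r * b) (1 + r * (1 - b)) (1 - r))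
            / (Sy (1 + r * b) (1 + r * (1 - b)) (1 - r) - 3 * (1 - r) ^ 9) - rv 281475312254976)
          ((Sy (1 + r * b) (1 + r * (1 - b)) (1 - r) - 3 * (1 - r) ^ 9)
            / Sy (1 + r * b) (1 + r * (1 - b)) (1 - r) - rv 281475054305280)) ∧
    (Wn3y (1 + r * b) (1 + r * (1 - b)) (1 - r) * Sy (1 + r * b) (1 + r * (1 - b)) (1 - r)
      ≤ Nxy (1 + r * b) (1 + r * (1 - b)) (1 - r)
        * BbF ((3 * (1 + r * b) ^ 9 - Sy (1 + r * b) (1 + r * (1 - b)) (1 - r))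
            / (Sy (1 + r * b) (1 + r * (1 - b)) (1 - r) - 3 * (1 - r) ^ 9) - rv 281475312254976)
          ((Sy (1 + r * b) (1 + r * (1 - b)) (1 - r) - 3 * (1 - r) ^ 9)
            / Sy (1 + r * b) (1 + r * (1 - b)) (1 - r) - rv 281475054305280)) ∧
    ((855 / 1024) * Hpy (1 + r * b) (1 + r * (1 - b)) (1 - r) ≤ Hqy (1 + r * b) (1 + r * (1 - b)) (1 - r)) ∧
    (Hqy (1 + r * b) (1 + r * (1 - b)) (1 - r) ≤ (113 / 128) * Hpy (1 + r * b) (1 + r * (1 - b)) (1 - r)) ∧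
    (Hpy (1 + r * b) (1 + r * (1 - b)) (1 - r) ≤ (9 / 32) * Sy (1 + r * b) (1 + r * (1 - b)) (1 - r)) := by
  obtain ⟨b1, b2, b3, b4, b5⟩ := box_K h0.le h1 h2 h3
  obtain ⟨ea, et⟩ := center_vals (r := r) (b := b) (l := (0 : ℝ)) (u := (0 : ℝ)) h0
  have eW := cWt_eq r b 0 0
  have eM := cMt_eq r b 0 0
  have eS := cS_eq r b 0 0
  have eP := cPt_eq r b 0 0
  have eHq := cHq_eq r b 0 0
  have eHp := cHp_eq r b 0 0
  have eN := center_N (r := r) (b := b) (l := (0 : ℝ)) (u := (0 : ℝ))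
  have side : ∀ j, 0 ≤ Ex.evR (nthEx gsc j) [r, b, 0, 0] := by
    intro j
    cases j with
    | zero =>
      have e37 : rv 281475131899904 = 37 / 64 := by unfold rv zv; norm_num
      rw [evR_gsc0, e37, eS, eP]
      rw [div_le_iff₀ hS] at hs
      linarith
    | succ j =>
      have : nthEx gsc (j + 1) = Ex.c 281474976710656 := rfl
      rw [this]
      unfold Ex.evR rv zv
      norm_num
  have gA := goodKAu r b 0 0 b1 side
  have gB := goodKBu r b 0 0 b2 side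
  have gl := goodKRl r b 0 0 b3 side
  have gu := goodKRu r b 0 0 b4 side
  have gx := goodKXm r b 0 0 b5 side
  rw [evR_KAu] at gA
  rw [evR_KBu] at gB
  rw [evR_KRl] at gl
  rw [evR_KRu] at gu
  rw [evR_KXm] at gx
  have hr4 : 0 ≤ r ^ 4 * 65536 := by positivity
  have hr2 : 0 ≤ r ^ 2 * 256 := by positivity
  have hr2' : 0 ≤ r ^ 2 := by positivity
  have eA : cAba r b 0 0 = AbF (caa r b 0 0 - rv 281475312254976) (ctt r b 0 0 - rv 281475054305280) := rfl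
  have eB : cBba r b 0 0 = BbF (caa r b 0 0 - rv 281475312254976) (ctt r b 0 0 - rv 281475054305280) := rfl
  have ek : rv 281474977759232 = 1 / 256 := by unfold rv zv; norm_num
  have er1 : rv 281475200843776 = 855 / 1024 := by unfold rv zv; norm_num
  have er2 : rv 281475213688832 = 113 / 128 := by unfold rv zv; norm_num
  have ex : rv 281475052208128 = 9 / 32 := by unfold rv zv; norm_num
  rw [← ea, ← et, ← eB, ← eA, ← eM, ← eW, ← eHq, ← eHp, eN, ← eS]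
  refine ⟨?_, ?_, ?_, ?_, ?_⟩
  · unfold RKAu cNN at gA
    have h6 := mul_nonneg hr4 gA
    have e : (r ^ 2 * (256 * cNn r b 0 0)) ^ 2 * cAba r b 0 0 - r ^ 4 * (65536 * cMt r b 0 0) * cS r b 0 0 ^ 2
        = r ^ 4 * 65536 * (cNn r b 0 0 * cNn r b 0 0 * cAba r b 0 0 - cMt r b 0 0 * (cS r b 0 0 * cS r b 0 0)) := by
      ring
    linarith
  · unfold RKBu cWs at gB
    rw [ek] at gB
    have h6 := mul_nonneg hr2 gB
    have e : r ^ 2 * (256 * cNn r b 0 0) * cBba r b 0 0 - r ^ 2 * cWt r b 0 0 * cS r b 0 0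
        = r ^ 2 * 256 * (cNn r b 0 0 * cBba r b 0 0 - 1 / 256 * (cWt r b 0 0 * cS r b 0 0)) := by
      ring
    linarith
  · unfold RKRl at gl
    rw [er1] at gl
    have h6 := mul_nonneg hr2' gl
    have e : r ^ 2 * cHq r b 0 0 - 855 / 1024 * (r ^ 2 * cHp r b 0 0)
        = r ^ 2 * (cHq r b 0 0 - 855 / 1024 * cHp r b 0 0) := by
      ring
    linarith
  · unfold RKRu at gu
    rw [er2] at gu
    have h6 := mul_nonneg hr2' gu
    have e : 113 / 128 * (r ^ 2 * cHp r b 0 0) - r ^ 2 * cHq r b 0 0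
        = r ^ 2 * (113 / 128 * cHp r b 0 0 - cHq r b 0 0) := by
      ring
    linarith
  · unfold RKXm at gx
    rw [ex] at gx
    have e : r * (r * cHp r b 0 0) = r ^ 2 * cHp r b 0 0 := by ring
    linarith

/-! ### The far chart -/

lemma far_vals (r b l u : ℝ) :
    fS r b l u = Sy 1 r b ∧ fLp r b l u = Lpy 1 r b ∧ fNx r b l u = Nxy 1 r b ∧
    fP0 r b l u = 3 * (1 : ℝ) ^ 9 - Sy 1 r b ∧ fPt r b l u = Sy 1 r b - 3 * b ^ 9 := by
  have eS : fS r b l u = Sy 1 r b := by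
    simp only [fS, fa9, fa8, fa7, fa6, fa5, fa4, fa3, fa2, fb9, fb8, fb7, fb6, fb5, fb4, fb3, fb2, Sy, rv, zv]
    push_cast
    ring
  have eP0 : fP0 r b l u = 3 * (1 : ℝ) ^ 9 - Sy 1 r b := by
    rw [← eS]
    simp only [fP0, rv, zv]
    push_cast
    ring
  have eP1 : fP1 r b l u = 3 * r ^ 9 - Sy 1 r b := by
    rw [← eS]
    simp only [fP1, fa9, fa8, fa7, fa6, fa5, fa4, fa3, fa2, rv, zv]
    push_cast
    ring
  have ePt : fPt r b l u = Sy 1 r b - 3 * b ^ 9 := by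
    rw [← eS]
    simp only [fPt, fb9, fb8, fb7, fb6, fb5, fb4, fb3, fb2, rv, zv]
    push_cast
    ring
  refine ⟨eS, ?_, ?_, eP0, ePt⟩
  · simp only [fLp, fS, fmq, fmp, fa9, fa8, fa7, fa6, fa5, fa4, fa3, fa2, fb9, fb8, fb7, fb6, fb5, fb4, fb3, fb2,
      Lpy, Sy, mqy, e3y, rv, zv]
    push_cast
    ring
  · have e3 : 3 * b ^ 9 - Sy 1 r b = - fPt r b l u := by rw [ePt]; ring
    have e4 : 3 * (1 : ℝ) ^ 9 - Sy 1 r b = fP0 r b l u := eP0.symm
    have e5 : 3 * r ^ 9 - Sy 1 r b = fP1 r b l u := eP1.symm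
    unfold fNx Nxy
    rw [e3, e4, e5]
    ring

/-- The top level inequality on the far chart. -/
theorem top_far {r b l : ℝ} (h0 : 0 ≤ r) (h1 : r ≤ 1) (h2 : 0 ≤ b) (h3 : b ≤ 1)
    (h4 : 1 / 2 ≤ l) (h5 : l ≤ 18919 / 32768) (hrb : b ≤ r) (hs : 17 * b ≤ 7 * (1 + r)) :
    (Nxy 1 r b) ^ 2 * rhs3 ((3 * (1 : ℝ) ^ 9 - Sy 1 r b) / (Sy 1 r b - 3 * b ^ 9))
        ((Sy 1 r b - 3 * b ^ 9) / Sy 1 r b) l (Nxy 1 r b / (Sy 1 r b) ^ 2)
      ≤ (Sy 1 r b * Lpy 1 r b - Nxy 1 r b) * (Sy 1 r b) ^ 2 := by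
  have e7 : rv 281476855758848 = 7 := by unfold rv zv; norm_num
  have e17 : rv 281479540113408 = 17 := by unfold rv zv; norm_num
  have g := goodK3f r b l 0 (box_K3f h0 h1 h2 h3 h4 h5) (by
    intro j
    match j with
    | 0 =>
      show 0 ≤ r - b
      linarith
    | 1 =>
      show 0 ≤ rv 281476855758848 * (rv 281475245146112 + r) - rv 281479540113408 * b
      rw [e7, e17, rv_one]
      linarith
    | (j + 2) =>
      have : nthEx gsf (j + 2) = Ex.c 281474976710656 := rfl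
      rw [this]
      unfold Ex.evR rv zv
      norm_num)
  rw [evR_K3f] at g
  obtain ⟨eS, eL, eN, eP0, ePt⟩ := far_vals r b l 0
  have ea : faa r b l 0 = (3 * (1 : ℝ) ^ 9 - Sy 1 r b) / (Sy 1 r b - 3 * b ^ 9) := by
    rw [← eP0, ← ePt]; rfl
  have et : ftt r b l 0 = (Sy 1 r b - 3 * b ^ 9) / Sy 1 r b := by
    rw [← ePt, ← eS]; rfl
  have eX : fXv r b l 0 = Nxy 1 r b / (Sy 1 r b) ^ 2 := by
    rw [← eN, ← eS]
    simp only [fXv, fiS]
    rw [div_eq_mul_inv, pow_two (fS r b l 0), mul_inv]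
  have eR : frhs3 r b l 0 = rhs3 (faa r b l 0) (ftt r b l 0) l (fXv r b l 0) := rfl
  rw [← ea, ← et, ← eX, ← eS, ← eL, ← eN, ← eR]
  unfold RK3f fM at g
  have e : (fS r b l 0 * fLp r b l 0 - fNx r b l 0) * fS r b l 0 ^ 2 - fNx r b l 0 ^ 2 * frhs3 r b l 0
      = (fS r b l 0 * fLp r b l 0 - fNx r b l 0) * (fS r b l 0 * fS r b l 0) - fNx r b l 0 * fNx r b l 0 * frhs3 r b l 0 := by
    ring
  linarith

end ST3

end Vale.Agent.Lib.P154
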