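import Vale.Agent.Lib.P154.ST3.Chart

/-!
The Lyapunov argument for the tree with three children, for eigenvalues between one half and the
Kesten-Stigum bound.
-/

namespace Vale.Agent.Lib.P154

namespace ST3

open ST Filter Topology

/-- The auxiliary linear combination of the two test functions. -/
noncomputable def W3 (u0 u1 u2 : ℝ) : ℝ := 63 * (1 - Gp u0 u1 u2) - c3 * (1 - Gq u0 u1 u2)

/-- The convex majorant of the second order term. -/
noncomputable def F3 (W : ℝ) : ℝ := (9682937 / 16777216) * W ^ 2 - (680167 / 8388608) * W ^ 3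

lemma rv_3 : rv 281475782017024 = 3 := by unfold rv zv; norm_num
lemma rv_IG : rv 281475131637648 = 9682937 / 16777216 := by unfold rv zv; norm_num
lemma rv_IB : rv 281474998476000 = 680167 / 8388608 := by unfold rv zv; norm_num
lemma rv_eps : rv 281474976727040 = 1 / 16384 := by unfold rv zv; norm_num
lemma rv_2 : rv 281475513581568 = 2 := by unfold rv zv; norm_num
lemma rv_54 : rv 281475312254976 = 5 / 4 := by unfold rv zv; norm_num
lemma rv_37 : rv 281475054305280 = 37 / 128 := by unfold rv zv; norm_num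

/-! ### Upper bounds on sorted points -/

lemma top_of_rep {u0 u1 u2 y0 y1 y2 l : ℝ} (R : Rep u0 u1 u2 y0 y1 y2) (hneg : u2 < 0)
    (H : (Nxy y0 y1 y2) ^ 2 * rhs3 ((3 * y0 ^ 9 - Sy y0 y1 y2) / (Sy y0 y1 y2 - 3 * y2 ^ 9))
        ((Sy y0 y1 y2 - 3 * y2 ^ 9) / Sy y0 y1 y2) l (Nxy y0 y1 y2 / (Sy y0 y1 y2) ^ 2)
      ≤ (Sy y0 y1 y2 * Lpy y0 y1 y2 - Nxy y0 y1 y2) * (Sy y0 y1 y2) ^ 2) :
    (sq3 u0 u1 u2) ^ 2 * rhs3 (u0 / (-u2)) (-u2) l (sq3 u0 u1 u2) ≤ psiF u0 u1 u2 - sq3 u0 u1 u2 := by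
  have hS := R.pos
  have hSne := hS.ne'
  set S := Sy y0 y1 y2 with hSd
  have e2 : -u2 = (S - 3 * y2 ^ 9) / S := by
    rw [R.e2]; ring
  have hpt : S - 3 * y2 ^ 9 ≠ 0 := by
    intro h0
    rw [h0] at e2
    simp at e2
    linarith
  have e0 : u0 / (-u2) = (3 * y0 ^ 9 - S) / (S - 3 * y2 ^ 9) := by
    have e00 : u0 = (3 * y0 ^ 9 - S) / S := R.e0
    rw [e2, e00]
    field_simp
  rw [e0, e2, R.psi, R.sq]
  have hS4 : 0 < S ^ 4 := by positivity
  have e3 : Lpy y0 y1 y2 / S - Nxy y0 y1 y2 / S ^ 2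
      = ((S * Lpy y0 y1 y2 - Nxy y0 y1 y2) * S ^ 2) / S ^ 4 := by
    field_simp
  have e4 : (Nxy y0 y1 y2 / S ^ 2) ^ 2 * rhs3 ((3 * y0 ^ 9 - S) / (S - 3 * y2 ^ 9)) ((S - 3 * y2 ^ 9) / S) l
        (Nxy y0 y1 y2 / S ^ 2)
      = ((Nxy y0 y1 y2) ^ 2 * rhs3 ((3 * y0 ^ 9 - S) / (S - 3 * y2 ^ 9)) ((S - 3 * y2 ^ 9) / S) l
        (Nxy y0 y1 y2 / S ^ 2)) / S ^ 4 := by
    field_simp
  rw [e3, e4]
  exact div_le_div_of_nonneg_right H hS4.le

/-- The top level inequality on sorted points. -/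
theorem top_sorted {u0 u1 u2 l : ℝ} (hT : InT u0 u1 u2) (h01 : u1 ≤ u0) (h12 : u2 ≤ u1) (hneg : u2 < 0)
    (hl0 : 1 / 2 ≤ l) (hl1 : l ≤ 18919 / 32768) :
    (sq3 u0 u1 u2) ^ 2 * rhs3 (u0 / (-u2)) (-u2) l (sq3 u0 u1 u2) ≤ psiF u0 u1 u2 - sq3 u0 u1 u2 := by
  have H := srt_of hT h01 h12 hneg
  obtain ⟨τ, a, h1, h2, h3, h4, R⟩ := center_rep H
  by_cases hτ : τ ≤ 1 / 8
  · exact top_of_rep R hneg (top_center h1 hτ h2 h3 hl0 hl1)
  · have hτ' : 1 / 8 < τ := not_le.1 hτ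
    obtain ⟨_, e0, e1, e2, p0, p1, p2, n2, o12, o01, s02⟩ := H
    set r0 := rt (1 + u0)
    set r1 := rt (1 + u1)
    set r2 := rt (1 + u2)
    have hr : 0 < r0 := by linarith
    have hσ : 0 < r0 + r1 + r2 := by linarith
    have h7 : r0 + r1 + r2 < 8 * (r0 + r1 - 2 * r2) := by
      have := mul_lt_mul_of_pos_right hτ' hσ
      rw [h4] at this
      linarith
    apply top_of_rep (far_rep ⟨hT, rfl, rfl, rfl, p0, p1, p2, n2, o12, o01, s02⟩) hneg
    apply top_far (div_nonneg (by linarith) hr.le) _ (div_nonneg n2 hr.le) _ hl0 hl1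
    · exact div_le_div_of_nonneg_right o12 hr.le
    · have e : 7 * (1 + r1 / r0) = (7 * (r0 + r1)) / r0 := by field_simp
      rw [e, mul_div_assoc', div_le_div_iff_of_pos_right hr]
      linarith
    · rw [div_le_one hr]; exact o01
    · rw [div_le_one hr]; linarith

/-- The upper bounds on sorted points close to the center. -/
theorem up_sorted {u0 u1 u2 : ℝ} (hT : InT u0 u1 u2) (h01 : u1 ≤ u0) (h12 : u2 ≤ u1) (hneg : u2 < 0)
    (ht : -u2 ≤ 37 / 64) :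
    psiF u0 u1 u2 - sq3 u0 u1 u2
        ≤ (sq3 u0 u1 u2) ^ 2 * AbF (u0 / (-u2) - rv 281475312254976) (-u2 - rv 281475054305280) ∧
      W3 u0 u1 u2 ≤ sq3 u0 u1 u2 * BbF (u0 / (-u2) - rv 281475312254976) (-u2 - rv 281475054305280) ∧
      (855 / 1024) * (1 - Gp u0 u1 u2) ≤ 1 - Gq u0 u1 u2 ∧
      1 - Gq u0 u1 u2 ≤ (113 / 128) * (1 - Gp u0 u1 u2) ∧
      1 - Gp u0 u1 u2 ≤ 9 / 32 := by
  have H := srt_of hT h01 h12 hneg
  obtain ⟨τ, a, h1, h2, h3, h4, R⟩ := center_rep H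
  obtain ⟨_, e0, e1, e2, p0, p1, p2, n2, o12, o01, s02⟩ := H
  set r0 := rt (1 + u0)
  set r1 := rt (1 + u1)
  set r2 := rt (1 + u2)
  obtain ⟨hs, h0', h1', h2'⟩ := hT
  have hσ : 0 < r0 + r1 + r2 := by linarith
  -- the radius is small
  have key : 14 * r0 ≤ 17 * r2 := by
    by_contra hc
    have hc' : 17 * r2 < 14 * r0 := not_le.1 hc
    have := pow_lt_pow_left₀ hc' (by positivity) (by norm_num : (9 : ℕ) ≠ 0)
    have e1' : (17 * r2) ^ 9 = 118587876497 * r2 ^ 9 := by ring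
    have e2' : (14 * r0) ^ 9 = 20661046784 * r0 ^ 9 := by ring
    rw [e1', e2', p0, p2] at this
    linarith
  have hτ : τ ≤ 1 / 8 := by
    by_contra hc
    have hτ' : 1 / 8 < τ := not_le.1 hc
    have := mul_lt_mul_of_pos_right hτ' hσ
    rw [h4] at this
    linarith
  have hS := R.pos
  have hSne := hS.ne'
  have e2'' : -u2 = (Sy (1 + τ * a) (1 + τ * (1 - a)) (1 - τ) - 3 * (1 - τ) ^ 9)
      / Sy (1 + τ * a) (1 + τ * (1 - a)) (1 - τ) := by
    rw [R.e2]; ring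
  have hs' : (Sy (1 + τ * a) (1 + τ * (1 - a)) (1 - τ) - 3 * (1 - τ) ^ 9)
      / Sy (1 + τ * a) (1 + τ * (1 - a)) (1 - τ) ≤ 37 / 64 := by
    rw [← e2'']; exact ht
  obtain ⟨g1, g2, g3, g4, g5⟩ := up_center h1 hτ h2 h3 hs' hS
  set y0 := 1 + τ * a with hy0
  set y1 := 1 + τ * (1 - a) with hy1
  set y2 := 1 - τ with hy2
  set S := Sy y0 y1 y2 with hSd
  have hpt : S - 3 * y2 ^ 9 ≠ 0 := by
    intro h0
    rw [h0] at e2''
    simp at e2''
    linarith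
  have e0' : u0 / (-u2) = (3 * y0 ^ 9 - S) / (S - 3 * y2 ^ 9) := by
    have e00 : u0 = (3 * y0 ^ 9 - S) / S := R.e0
    rw [e2'', e00]
    field_simp
  have eHp : 1 - Gp u0 u1 u2 = Hpy y0 y1 y2 / S := by
    have : Gp u0 u1 u2 = 3 * e3y y0 y1 y2 / S := R.gp
    rw [this]
    show _ = (S - 3 * e3y y0 y1 y2) / S
    field_simp
  have eHq : 1 - Gq u0 u1 u2 = Hqy y0 y1 y2 / S := by
    have : Gq u0 u1 u2 = mqy y0 y1 y2 / (2 * S) := R.gq
    rw [this]
    show _ = (S - (1 / 2) * mqy y0 y1 y2) / S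
    field_simp
  have eW : W3 u0 u1 u2 = Wn3y y0 y1 y2 / S := by
    unfold W3
    rw [eHp, eHq]
    show 63 * ((S - 3 * e3y y0 y1 y2) / S) - c3 * ((S - (1 / 2) * mqy y0 y1 y2) / S)
      = ((63 - c3) * S - 189 * e3y y0 y1 y2 + (c3 / 2) * mqy y0 y1 y2) / S
    field_simp
    ring
  have eP : psiF u0 u1 u2 = Lpy y0 y1 y2 / S := R.psi
  have eX : sq3 u0 u1 u2 = Nxy y0 y1 y2 / S ^ 2 := R.sq
  rw [e0', e2'', eHp, eHq, eW, eP, eX]
  have hS4 : 0 < S ^ 4 := by positivity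
  have hS2 : 0 < S ^ 2 := by positivity
  refine ⟨?_, ?_, ?_, ?_, ?_⟩
  · have e3 : Lpy y0 y1 y2 / S - Nxy y0 y1 y2 / S ^ 2
        = ((S * Lpy y0 y1 y2 - Nxy y0 y1 y2) * S ^ 2) / S ^ 4 := by
      field_simp
    have e4 : ∀ A : ℝ, (Nxy y0 y1 y2 / S ^ 2) ^ 2 * A = ((Nxy y0 y1 y2) ^ 2 * A) / S ^ 4 := by
      intro A
      field_simp
    rw [e3, e4]
    exact div_le_div_of_nonneg_right g1 hS4.le
  · have e3 : Wn3y y0 y1 y2 / S = (Wn3y y0 y1 y2 * S) / S ^ 2 := by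
      field_simp
    have e4 : ∀ B : ℝ, Nxy y0 y1 y2 / S ^ 2 * B = (Nxy y0 y1 y2 * B) / S ^ 2 := by
      intro B
      field_simp
    rw [e3, e4]
    exact div_le_div_of_nonneg_right g2 hS2.le
  · rw [← mul_div_assoc]
    exact div_le_div_of_nonneg_right g3 hS.le
  · rw [← mul_div_assoc]
    exact div_le_div_of_nonneg_right g4 hS.le
  · rw [div_le_iff₀ hS]
    exact g5

lemma Bbar_le {x y : ℝ} (h0 : -(3 / 4) ≤ x) (h1 : x ≤ 3 / 4) (h2 : -(37 / 128) ≤ y) (h3 : y ≤ 37 / 128) :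
    BbF x y ≤ 2 := by
  have g := goodKBB x y 0 0 (box_KBB h0 h1 h2 h3) (by
    intro j
    rw [nthEx_nil]
    unfold Ex.evR rv zv
    norm_num)
  rw [evR_KBB] at g
  unfold RKBB at g
  rw [rv_2] at g
  linarith

lemma F3_mono {W W1 : ℝ} (h0 : 0 ≤ W) (h1 : W ≤ W1) (h2 : W1 ≤ 4) : F3 W ≤ F3 W1 := by
  have e : F3 W1 - F3 W = (W1 - W) * ((9682937 / 16777216) * (W1 + W)
      - (680167 / 8388608) * (W1 ^ 2 + W1 * W + W ^ 2)) := by
    unfold F3; ring
  have a1 : W1 ^ 2 + W1 * W + W ^ 2 ≤ 6 * (W1 + W) := by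
    nlinarith [mul_nonneg h0 (sub_nonneg.2 h1), mul_nonneg h0 (sub_nonneg.2 h2),
      mul_nonneg (le_trans h0 h1) (sub_nonneg.2 h2)]
  have a2 : 0 ≤ (9682937 / 16777216) * (W1 + W) - (680167 / 8388608) * (W1 ^ 2 + W1 * W + W ^ 2) := by
    have : 0 ≤ W1 + W := by linarith
    nlinarith
  have := mul_nonneg (sub_nonneg.2 h1) a2
  linarith

lemma sq3_nonneg (u0 u1 u2 : ℝ) : 0 ≤ sq3 u0 u1 u2 := by
  unfold sq3
  nlinarith [mul_self_nonneg u0, mul_self_nonneg u1, mul_self_nonneg u2]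

lemma sq3_le_six {u0 u1 u2 : ℝ} (h : InT u0 u1 u2) : sq3 u0 u1 u2 ≤ 6 := by
  obtain ⟨hs, h0, h1, h2⟩ := h
  unfold sq3
  have a0 : 0 ≤ (u0 + 1) * (2 - u0) := mul_nonneg (by linarith) (by linarith)
  have a1 : 0 ≤ (u1 + 1) * (2 - u1) := mul_nonneg (by linarith) (by linarith)
  have a2 : 0 ≤ (u2 + 1) * (2 - u2) := mul_nonneg (by linarith) (by linarith)
  nlinarith

lemma lam_le {lam : ℝ} (h0 : 1 / 2 ≤ lam) (h1 : 3 * lam ^ 2 ≤ 1) : lam ≤ 18919 / 32768 := by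
  by_contra hc
  have hc' : 18919 / 32768 < lam := not_le.1 hc
  nlinarith

lemma scale_bd {lam u : ℝ} (h0 : 0 ≤ lam) (hl : lam ≤ 18919 / 32768) (hu : -1 ≤ u) : -(lam * u) ≤ 37 / 64 := by
  have := mul_nonneg h0 (by linarith : 0 ≤ u + 1)
  nlinarith

lemma W_bounds {hp hq : ℝ} (a0 : 0 ≤ hp) (a1 : (855 / 1024) * hp ≤ hq) (a2 : hq ≤ (113 / 128) * hp)
    (a3 : hp ≤ 9 / 32) : 0 ≤ 63 * hp - c3 * hq ∧ 63 * hp - c3 * hq ≤ 2 := by
  have hc3 : c3 = 4379 / 64 := rfl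
  rw [hc3]
  constructor <;> linarith

lemma pw_core {lam X A B Pu Pw W : ℝ} (hX : 0 ≤ X) (hl : 3 * lam ^ 2 ≤ 1)
    (ht : X ^ 2 * (lam * lam * (lam * lam) * (3 * A + 9682937 / 16777216 * (B * B))
      - 680167 / 8388608 * (lam * lam * (lam * lam) * (lam * lam) * (X * (B * B * B))) + 1 / 16384) ≤ Pu - X)
    (g1 : Pw - lam ^ 2 * X ≤ (lam ^ 2 * X) ^ 2 * A)
    (hF : F3 W ≤ F3 (lam ^ 2 * X * B)) :
    3 * Pw + F3 W + (1 / 16384) * X ^ 2 ≤ Pu := by
  have eF : F3 (lam ^ 2 * X * B) = (9682937 / 16777216) * (lam ^ 2 * X * B) ^ 2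
      - (680167 / 8388608) * (lam ^ 2 * X * B) ^ 3 := rfl
  have e : X ^ 2 * (lam * lam * (lam * lam) * (3 * A + 9682937 / 16777216 * (B * B))
      - 680167 / 8388608 * (lam * lam * (lam * lam) * (lam * lam) * (X * (B * B * B))) + 1 / 16384)
      = 3 * ((lam ^ 2 * X) ^ 2 * A) + F3 (lam ^ 2 * X * B) + (1 / 16384) * X ^ 2 := by
    rw [eF]; ring
  rw [e] at ht
  have h3 : 0 ≤ X * (1 - 3 * lam ^ 2) := mul_nonneg hX (by linarith)
  have h4 : X * (1 - 3 * lam ^ 2) = X - 3 * (lam ^ 2 * X) := by ring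
  linarith

lemma W1_le {lam X B : ℝ} (hX : 0 ≤ X) (hX6 : X ≤ 6) (hl : 3 * lam ^ 2 ≤ 1) (hB : B ≤ 2) :
    lam ^ 2 * X * B ≤ 4 := by
  have hl0 : 0 ≤ lam ^ 2 := by positivity
  have h1 : lam ^ 2 * X ≤ 2 := by nlinarith
  have h2 : 0 ≤ lam ^ 2 * X := by positivity
  have h3 := mul_le_mul_of_nonneg_left hB h2
  linarith

section pw

variable {lam : ℝ}

/-- The pointwise inequality on sorted points. -/
theorem pw_sorted (h0 : 1 / 2 ≤ lam) (h1 : 3 * lam ^ 2 ≤ 1)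
    {u0 u1 u2 : ℝ} (hT : InT u0 u1 u2) (h01 : u1 ≤ u0) (h12 : u2 ≤ u1) (hneg : u2 < 0) :
    3 * psiF (lam * u0) (lam * u1) (lam * u2) + F3 (W3 (lam * u0) (lam * u1) (lam * u2))
        + (1 / 16384) * (sq3 u0 u1 u2) ^ 2 ≤ psiF u0 u1 u2 := by
  have hl := lam_le h0 h1
  have hp : 0 < lam := by linarith
  have hTw : InT (lam * u0) (lam * u1) (lam * u2) := InT_scale (by linarith) (by linarith) hT
  have hm2 : -1 ≤ u2 := hT.2.2.2
  have hw : -(lam * u2) ≤ 37 / 64 := scale_bd hp.le hl hm2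
  obtain ⟨g1, g2, g3, g4, g5⟩ := up_sorted hTw (mul_le_mul_of_nonneg_left h01 hp.le)
    (mul_le_mul_of_nonneg_left h12 hp.le) (mul_neg_of_pos_of_neg hp hneg) hw
  have ea : lam * u0 / (-(lam * u2)) = u0 / (-u2) := by
    have : -(lam * u2) = lam * (-u2) := by ring
    rw [this, mul_div_mul_left _ _ hp.ne']
  have eX : sq3 (lam * u0) (lam * u1) (lam * u2) = lam ^ 2 * sq3 u0 u1 u2 := by
    unfold sq3; ring
  have et : -(lam * u2) - rv 281475054305280 = lam * (-u2) - rv 281475054305280 := by ring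
  rw [ea, eX, et] at g1
  rw [ea, eX, et] at g2
  have ht := top_sorted (l := lam) hT h01 h12 hneg h0 hl
  unfold rhs3 at ht
  rw [rv_3, rv_IG, rv_IB, rv_eps] at ht
  -- the range of the direction and of the scale
  have hs := hT.1
  have ha0 : 1 / 2 ≤ u0 / (-u2) := by
    rw [le_div_iff₀ (by linarith)]
    linarith
  have ha1 : u0 / (-u2) ≤ 2 := by
    rw [div_le_iff₀ (by linarith)]
    linarith
  have ht0 : 0 ≤ lam * (-u2) := mul_nonneg hp.le (by linarith)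
  have ht1 : lam * (-u2) ≤ 37 / 64 := by
    have : lam * (-u2) = -(lam * u2) := by ring
    rw [this]; exact hw
  have hB2 := Bbar_le (x := u0 / (-u2) - rv 281475312254976) (y := lam * (-u2) - rv 281475054305280)
    (by rw [rv_54]; linarith) (by rw [rv_54]; linarith) (by rw [rv_37]; linarith) (by rw [rv_37]; linarith)
  have hh : 0 ≤ 1 - Gp (lam * u0) (lam * u1) (lam * u2) := by
    have := Gp_le_one hTw
    linarith
  have hW0 : 0 ≤ W3 (lam * u0) (lam * u1) (lam * u2) := (W_bounds hh g3 g4 g5).1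
  have hX := sq3_nonneg u0 u1 u2
  have hX6 := sq3_le_six hT
  have hW1 := W1_le hX hX6 h1 hB2
  have hF := F3_mono hW0 g2 hW1
  exact pw_core hX h1 ht g1 hF

/-- The pointwise estimates for the test functions. -/
lemma hull_sorted {w0 w1 w2 : ℝ} (hT : InT w0 w1 w2) (h01 : w1 ≤ w0) (h12 : w2 ≤ w1)
    (ht : -w2 ≤ 37 / 64) :
    (855 / 1024) * (1 - Gp w0 w1 w2) ≤ 1 - Gq w0 w1 w2 ∧
      1 - Gq w0 w1 w2 ≤ (113 / 128) * (1 - Gp w0 w1 w2) ∧
      1 - Gp w0 w1 w2 ≤ 9 / 32 := by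
  by_cases hneg : w2 < 0
  · obtain ⟨_, _, g3, g4, g5⟩ := up_sorted hT h01 h12 hneg ht
    exact ⟨g3, g4, g5⟩
  · obtain ⟨e0, e1, e2⟩ := zero_of_sorted hT h01 h12 hneg
    subst e0 e1 e2
    have r1 : rt (1 + 0) = 1 := by rw [add_zero, rt_one]
    have eq : Gq 0 0 0 = 1 := by
      unfold Gq avg6 Gk mon
      rw [r1]
      norm_num
    have ep : Gp 0 0 0 = 1 := by
      unfold Gp Gk mon
      rw [r1]
      norm_num
    rw [eq, ep]
    norm_num

/-- The pointwise estimates for the test functions on the triangle. -/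
lemma hull_all : ∀ w0 w1 w2 : ℝ, InT w0 w1 w2 → -w0 ≤ 37 / 64 → -w1 ≤ 37 / 64 → -w2 ≤ 37 / 64 →
    ((855 / 1024) * (1 - Gp w0 w1 w2) ≤ 1 - Gq w0 w1 w2 ∧
      1 - Gq w0 w1 w2 ≤ (113 / 128) * (1 - Gp w0 w1 w2) ∧
      1 - Gp w0 w1 w2 ≤ 9 / 32) := by
  apply sym_reduce (P := fun w0 w1 w2 => -w0 ≤ 37 / 64 → -w1 ≤ 37 / 64 → -w2 ≤ 37 / 64 →
    ((855 / 1024) * (1 - Gp w0 w1 w2) ≤ 1 - Gq w0 w1 w2 ∧
      1 - Gq w0 w1 w2 ≤ (113 / 128) * (1 - Gp w0 w1 w2) ∧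
      1 - Gp w0 w1 w2 ≤ 9 / 32))
  · intro a b c h h0 h1 h2
    rw [Gq_swap01 a b c, Gp_swap01 a b c]
    exact h h1 h0 h2
  · intro a b c h h0 h1 h2
    rw [Gq_swap12 a b c, Gp_swap12 a b c]
    exact h h0 h2 h1
  · intro a b c hT h1 h2 _ _ h5
    exact hull_sorted hT h1 h2 h5

lemma W3_swap01 (a b c : ℝ) : W3 b a c = W3 a b c := by
  unfold W3; rw [Gq_swap01, Gp_swap01]

lemma W3_swap12 (a b c : ℝ) : W3 a c b = W3 a b c := by
  unfold W3; rw [Gq_swap12, Gp_swap12]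

/-- The pointwise inequality on the triangle. -/
theorem pw_all (h0 : 1 / 2 ≤ lam) (h1 : 3 * lam ^ 2 ≤ 1) :
    ∀ u0 u1 u2, InT u0 u1 u2 →
      3 * psiF (lam * u0) (lam * u1) (lam * u2) + F3 (W3 (lam * u0) (lam * u1) (lam * u2))
        + (1 / 16384) * (sq3 u0 u1 u2) ^ 2 ≤ psiF u0 u1 u2 := by
  apply sym_reduce
  · intro a b c h
    rw [psiF_swap01 a b c, psiF_swap01 (lam * a) (lam * b) (lam * c), W3_swap01 (lam * a) (lam * b) (lam * c),
      sq3_swap01 a b c]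
    exact h
  · intro a b c h
    rw [psiF_swap12 a b c, psiF_swap12 (lam * a) (lam * b) (lam * c), W3_swap12 (lam * a) (lam * b) (lam * c),
      sq3_swap12 a b c]
    exact h
  · intro a b c hT h2 h3
    by_cases hneg : c < 0
    · exact pw_sorted h0 h1 hT h2 h3 hneg
    · obtain ⟨e0, e1, e2⟩ := zero_of_sorted hT h2 h3 hneg
      subst e0 e1 e2
      have v := values_zero
      have r1 : rt (1 + 0) = 1 := by rw [add_zero, rt_one]
      have eq : Gq 0 0 0 = 1 := by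
        unfold Gq avg6 Gk mon
        rw [r1]
        norm_num
      have ep : Gp 0 0 0 = 1 := by
        unfold Gp Gk mon
        rw [r1]
        norm_num
      have eW : W3 0 0 0 = 0 := by
        unfold W3
        rw [eq, ep]
        ring
      simp only [mul_zero]
      rw [v.1, v.2.2, eW]
      norm_num [F3]

/-! ### The second order term -/

lemma cone_bound {x y : ℝ} (h1 : (855 / 1024) * x ≤ y) (h2 : y ≤ (113 / 128) * x) (h3 : 0 ≤ x) (h4 : x ≤ 9 / 32) :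
    63 * (3 * x ^ 2 - x ^ 3) - 81 * (3 * y ^ 2 - y ^ 3) ≤ F3 (63 * x - c3 * y) := by
  rcases h3.eq_or_lt with e | hx
  · subst e
    have hy : y = 0 := by linarith
    subst hy
    norm_num [F3]
  · have hy : y = (y / x) * x := by field_simp
    set ρ := y / x with hρ
    have hr1 : 855 / 1024 ≤ ρ := by
      rw [hρ, le_div_iff₀ hx]; exact h1
    have hr2 : ρ ≤ 113 / 128 := by
      rw [hρ, div_le_iff₀ hx]; exact h2
    have g := goodKCn x ρ 0 0 (box_KCn h3 h4 hr1 hr2) (by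
      intro j
      rw [nthEx_nil]
      unfold Ex.evR rv zv
      norm_num)
    rw [evR_KCn] at g
    unfold RKCn nw2 nr2 nw at g
    have e1 : rv 281491888144384 = 63 := by unfold rv zv; norm_num
    have e2 : rv 281493343567872 = 4379 / 64 := by unfold rv zv; norm_num
    have e3 : rv 281525711011840 = 189 := by unfold rv zv; norm_num
    have e4 : rv 281540206526464 = 243 := by unfold rv zv; norm_num
    have e5 : rv 281496719982592 = 81 := by unfold rv zv; norm_num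
    rw [e1, e2, e3, e4, e5, rv_IG, rv_IB] at g
    have := mul_nonneg (sq_nonneg x) g
    have e : F3 (63 * x - c3 * (ρ * x)) - (63 * (3 * x ^ 2 - x ^ 3) - 81 * (3 * (ρ * x) ^ 2 - (ρ * x) ^ 3))
        = x ^ 2 * (9682937 / 16777216 * ((63 - 4379 / 64 * ρ) * (63 - 4379 / 64 * ρ)) - 189 + 243 * (ρ * ρ)
          + x * (63 - 81 * (ρ * ρ * ρ)
            - 680167 / 8388608 * ((63 - 4379 / 64 * ρ) * (63 - 4379 / 64 * ρ) * (63 - 4379 / 64 * ρ)))) := by
      unfold F3 c3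
      ring
    rw [hy]
    linarith

end pw

section step

variable {lam : ℝ}

/-- One step of the Lyapunov argument. -/
theorem En_psi_step (h0 : 1 / 2 ≤ lam) (h1 : 3 * lam ^ 2 ≤ 1) (n : ℕ) :
    En 3 lam (n + 1) psiF ≤ En 3 lam n psiF - (1 / 16384) * (En 3 lam n sq3) ^ 2 := by
  have hl := lam_le h0 h1
  have hl1 : -(1 / 2) ≤ lam := by linarith
  have hl2 : lam ≤ 1 := by linarith
  set Eq := En 3 lam n (fun u0 u1 u2 => Gq (lam * u0) (lam * u1) (lam * u2)) with hEq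
  set Ep := En 3 lam n (fun u0 u1 u2 => Gp (lam * u0) (lam * u1) (lam * u2)) with hEp
  have lin : ∀ a b c : ℝ, En 3 lam n (fun u0 u1 u2 => a * Gq (lam * u0) (lam * u1) (lam * u2)
      + b * Gp (lam * u0) (lam * u1) (lam * u2) + c) = a * Eq + b * Ep + c :=
    fun a b c => En_lin n a b c (fun u0 u1 u2 => Gq (lam * u0) (lam * u1) (lam * u2))
      (fun u0 u1 u2 => Gp (lam * u0) (lam * u1) (lam * u2))
  have e1 : En 3 lam (n + 1) psiF = 81 * (1 - Eq ^ 3) - 63 * (1 - Ep ^ 3) := by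
    have := En_lin (d := 3) (lam := lam) (n + 1) (-81) 63 18 Gq Gp
    have e2 : psiF = (fun u0 u1 u2 => -81 * Gq u0 u1 u2 + 63 * Gp u0 u1 u2 + 18) := by
      funext u0 u1 u2; unfold psiF; ring
    rw [e2, this, En_Gq_succ hl1 hl2, En_Gp_succ hl1 hl2]
    ring
  have e3 : En 3 lam n (fun u0 u1 u2 => psiF (lam * u0) (lam * u1) (lam * u2))
      = 81 * (1 - Eq) - 63 * (1 - Ep) := by
    have e2 : (fun u0 u1 u2 => psiF (lam * u0) (lam * u1) (lam * u2))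
        = (fun u0 u1 u2 => -81 * Gq (lam * u0) (lam * u1) (lam * u2)
            + 63 * Gp (lam * u0) (lam * u1) (lam * u2) + 18) := by
      funext u0 u1 u2; unfold psiF; ring
    rw [e2, lin]
    ring
  -- estimates for the scaled points
  have hscale : ∀ u0 u1 u2, InT u0 u1 u2 →
      InT (lam * u0) (lam * u1) (lam * u2) ∧ -(lam * u0) ≤ 37 / 64 ∧ -(lam * u1) ≤ 37 / 64
        ∧ -(lam * u2) ≤ 37 / 64 := by
    intro u0 u1 u2 hu
    exact ⟨InT_scale hl1 hl2 hu, scale_bd (by linarith) hl hu.2.1, scale_bd (by linarith) hl hu.2.2.1,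
      scale_bd (by linarith) hl hu.2.2.2⟩
  have hH := fun u0 u1 u2 (hu : InT u0 u1 u2) =>
    hull_all (lam * u0) (lam * u1) (lam * u2) (hscale u0 u1 u2 hu).1 (hscale u0 u1 u2 hu).2.1
      (hscale u0 u1 u2 hu).2.2.1 (hscale u0 u1 u2 hu).2.2.2
  have pos : ∀ a b c : ℝ, (∀ u0 u1 u2, InT u0 u1 u2 → 0 ≤ a * Gq (lam * u0) (lam * u1) (lam * u2)
      + b * Gp (lam * u0) (lam * u1) (lam * u2) + c) → 0 ≤ a * Eq + b * Ep + c := by
    intro a b c h
    rw [← lin]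
    exact En_nonneg hl1 hl2 n h
  have b1 : (855 / 1024) * (1 - Ep) ≤ 1 - Eq := by
    have := pos (-1) (855 / 1024) (1 - 855 / 1024) (fun u0 u1 u2 hu => by
      have := (hH u0 u1 u2 hu).1
      linarith)
    linarith
  have b2 : 1 - Eq ≤ (113 / 128) * (1 - Ep) := by
    have := pos 1 (-(113 / 128)) (113 / 128 - 1) (fun u0 u1 u2 hu => by
      have := (hH u0 u1 u2 hu).2.1
      linarith)
    linarith
  have b3 : 1 - Ep ≤ 9 / 32 := by
    have := pos 0 1 (9 / 32 - 1) (fun u0 u1 u2 hu => by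
      have := (hH u0 u1 u2 hu).2.2
      linarith)
    linarith
  have b4 : 0 ≤ 1 - Ep := by
    have := pos 0 (-1) 1 (fun u0 u1 u2 hu => by
      have := Gp_le_one (hscale u0 u1 u2 hu).1
      linarith)
    linarith
  have hcone := cone_bound b1 b2 b4 b3
  set x := 1 - Ep with hx
  set y := 1 - Eq with hy
  set Wb := 63 * x - c3 * y with hWb
  -- Jensen
  have hc3 : c3 = 4379 / 64 := rfl
  have hW : ∀ u0 u1 u2, InT u0 u1 u2 →
      0 ≤ W3 (lam * u0) (lam * u1) (lam * u2) ∧ W3 (lam * u0) (lam * u1) (lam * u2) ≤ 2 := by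
    intro u0 u1 u2 hu
    obtain ⟨a1, a2, a3⟩ := hH u0 u1 u2 hu
    have a4 := Gp_le_one (hscale u0 u1 u2 hu).1
    exact W_bounds (by linarith) a1 a2 a3
  have hWb0 : 0 ≤ Wb := (W_bounds b4 b1 b2 b3).1
  have hWb2 : Wb ≤ 2 := (W_bounds b4 b1 b2 b3).2
  set D := 2 * (9682937 / 16777216) * Wb - 3 * (680167 / 8388608) * Wb ^ 2 with hD
  have hJ : F3 Wb ≤ En 3 lam n (fun u0 u1 u2 => F3 (W3 (lam * u0) (lam * u1) (lam * u2))) := by
    have h2 := En_le (d := 3) (lam := lam) hl1 hl2 n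
      (f := fun u0 u1 u2 => (D * c3) * Gq (lam * u0) (lam * u1) (lam * u2)
        + (-63 * D) * Gp (lam * u0) (lam * u1) (lam * u2) + (F3 Wb + D * (63 - c3 - Wb)))
      (g := fun u0 u1 u2 => F3 (W3 (lam * u0) (lam * u1) (lam * u2)))
      (fun u0 u1 u2 hu => by
        obtain ⟨a1, a2⟩ := hW u0 u1 u2 hu
        set W := W3 (lam * u0) (lam * u1) (lam * u2) with hWd
        have e : (D * c3) * Gq (lam * u0) (lam * u1) (lam * u2)
            + (-63 * D) * Gp (lam * u0) (lam * u1) (lam * u2) + (F3 Wb + D * (63 - c3 - Wb))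
            = F3 Wb + D * (W - Wb) := by
          rw [hWd]; unfold W3; ring
        rw [e]
        have e2 : F3 W - (F3 Wb + D * (W - Wb)) = (W - Wb) ^ 2
            * ((9682937 / 16777216) - (680167 / 8388608) * (W + 2 * Wb)) := by
          rw [hD]; unfold F3; ring
        have e3 : 0 ≤ (9682937 / 16777216 : ℝ) - (680167 / 8388608) * (W + 2 * Wb) := by
          linarith
        have := mul_nonneg (sq_nonneg (W - Wb)) e3
        linarith)
    rw [lin] at h2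
    have e : D * c3 * Eq + -63 * D * Ep + (F3 Wb + D * (63 - c3 - Wb)) = F3 Wb := by
      have e' : Wb = 63 * (1 - Ep) - c3 * (1 - Eq) := rfl
      have : D * c3 * Eq + -63 * D * Ep + (F3 Wb + D * (63 - c3 - Wb))
          = F3 Wb + D * ((63 * (1 - Ep) - c3 * (1 - Eq)) - Wb) := by ring
      rw [this, ← e']
      ring
    rw [e] at h2
    exact h2
  -- the integrated pointwise inequality
  have hI := En_le (d := 3) (lam := lam) hl1 hl2 n (pw_all h0 h1)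
  have eI : En 3 lam n (fun u0 u1 u2 => 3 * psiF (lam * u0) (lam * u1) (lam * u2)
        + F3 (W3 (lam * u0) (lam * u1) (lam * u2)) + (1 / 16384) * (sq3 u0 u1 u2) ^ 2)
      = 3 * En 3 lam n (fun u0 u1 u2 => psiF (lam * u0) (lam * u1) (lam * u2))
        + En 3 lam n (fun u0 u1 u2 => F3 (W3 (lam * u0) (lam * u1) (lam * u2)))
        + (1 / 16384) * En 3 lam n (fun u0 u1 u2 => (sq3 u0 u1 u2) ^ 2) := by
    have a := En_lin (d := 3) (lam := lam) n 1 (1 / 16384) 0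
      (fun u0 u1 u2 => F3 (W3 (lam * u0) (lam * u1) (lam * u2))) (fun u0 u1 u2 => (sq3 u0 u1 u2) ^ 2)
    have b := En_lin (d := 3) (lam := lam) n 3 1 0
      (fun u0 u1 u2 => psiF (lam * u0) (lam * u1) (lam * u2))
      (fun u0 u1 u2 => 1 * F3 (W3 (lam * u0) (lam * u1) (lam * u2)) + (1 / 16384) * (sq3 u0 u1 u2) ^ 2 + 0)
    have e : (fun u0 u1 u2 => 3 * psiF (lam * u0) (lam * u1) (lam * u2)
        + F3 (W3 (lam * u0) (lam * u1) (lam * u2)) + (1 / 16384) * (sq3 u0 u1 u2) ^ 2)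
        = (fun u0 u1 u2 => 3 * psiF (lam * u0) (lam * u1) (lam * u2)
          + 1 * (1 * F3 (W3 (lam * u0) (lam * u1) (lam * u2)) + (1 / 16384) * (sq3 u0 u1 u2) ^ 2 + 0) + 0) := by
      funext u0 u1 u2; ring
    rw [e, b, a]
    ring
  rw [eI, e3] at hI
  have hJ2 := En_sq_le (d := 3) (lam := lam) hl1 hl2 n sq3
  have e5 : 81 * (1 - Eq ^ 3) - 63 * (1 - Ep ^ 3)
      = 3 * (81 * y - 63 * x) + (63 * (3 * x ^ 2 - x ^ 3) - 81 * (3 * y ^ 2 - y ^ 3)) := by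
    rw [hx, hy]; ring
  rw [e1, e5]
  have e6 : 81 * (1 - Eq) - 63 * (1 - Ep) = 81 * y - 63 * x := rfl
  rw [e6] at hI
  linarith

/-- Nonreconstruction for the tree with three children, for eigenvalues between one half and the
Kesten-Stigum bound. -/
theorem nonreconstruction_upper (h0 : 1 / 2 ≤ lam) (h1 : 3 * lam ^ 2 ≤ 1) :
    Tendsto (fun n => reconstructionGap 3 3 lam n) atTop (𝓝 0) := by
  have hl := lam_le h0 h1
  have hl1 : -(1 / 2) ≤ lam := by linarith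
  have hl2 : lam ≤ 1 := by linarith
  apply gap_tendsto hl1 hl2
  apply tendsto_of_decrement (l := fun n => En 3 lam n psiF) (κ := 1 / 16384)
    (by norm_num) (fun n => En_nonneg hl1 hl2 n psiF_nonneg) (fun n => En_sq3_nonneg hl1 hl2 n)
  exact En_psi_step h0 h1

end step

end ST3

end Vale.Agent.Lib.P154
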